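import Mathlib

/-!
Products of boundedly many block matrices in `Sp_{2n}(ℤ)`: basic calculus.
-/

set_option linter.all false

namespace Vale.Agent.P092.R2.H381

open Matrix

variable {κ : Type} [Fintype κ] [DecidableEq κ]

/-- `M` is `diag(A, A^{-T})` with `det A = 1`, or `[[1, Y], [0, 1]]` or `[[1, 0], [X, 1]]` with
symmetric `Y`, `X`. -/
def Blk (M : Matrix (κ ⊕ κ) (κ ⊕ κ) ℤ) : Prop :=
  (∃ A B : Matrix κ κ ℤ, A.det = 1 ∧ A * Bᵀ = 1 ∧ M = fromBlocks A 0 0 B) ∨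
  (∃ Y : Matrix κ κ ℤ, Yᵀ = Y ∧ M = fromBlocks 1 Y 0 1) ∨
  (∃ X : Matrix κ κ ℤ, Xᵀ = X ∧ M = fromBlocks 1 0 X 1)

/-- `M` is a product of at most `N` blocks. -/
def Bd (N : ℕ) (M : Matrix (κ ⊕ κ) (κ ⊕ κ) ℤ) : Prop :=
  ∃ l : List (Matrix (κ ⊕ κ) (κ ⊕ κ) ℤ), l.length ≤ N ∧ (∀ x ∈ l, Blk x) ∧ l.prod = M

theorem Blk.u {Y : Matrix κ κ ℤ} (h : Yᵀ = Y) : Blk (fromBlocks 1 Y 0 1) :=
  Or.inr (Or.inl ⟨Y, h, rfl⟩)

theorem Blk.v {X : Matrix κ κ ℤ} (h : Xᵀ = X) : Blk (fromBlocks 1 0 X 1) :=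
  Or.inr (Or.inr ⟨X, h, rfl⟩)

theorem Blk.l {A B : Matrix κ κ ℤ} (h : A.det = 1) (hB : A * Bᵀ = 1) :
    Blk (fromBlocks A 0 0 B) :=
  Or.inl ⟨A, B, h, hB, rfl⟩

theorem Blk.inv {M : Matrix (κ ⊕ κ) (κ ⊕ κ) ℤ} (h : Blk M) :
    ∃ M', Blk M' ∧ M' * M = 1 ∧ M * M' = 1 := by
  rcases h with ⟨A, B, hA, hB, rfl⟩ | ⟨Y, hY, rfl⟩ | ⟨X, hX, rfl⟩
  · have h1 : Bᵀ * A = 1 := mul_eq_one_comm.mp hB
    have h2 : B * Aᵀ = 1 := by
      have := congrArg transpose hB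
      rwa [transpose_mul, transpose_transpose, transpose_one] at this
    have h3 : Aᵀ * B = 1 := mul_eq_one_comm.mp h2
    refine ⟨fromBlocks Bᵀ 0 0 Aᵀ, Blk.l ?_ ?_, ?_, ?_⟩
    · have := congrArg det hB
      rw [det_mul, hA, one_mul, det_one] at this
      exact this
    · rw [transpose_transpose, h1]
    · rw [fromBlocks_multiply]
      simp [h1, h3]
    · rw [fromBlocks_multiply]
      simp [hB, h2]
  · refine ⟨fromBlocks 1 (-Y) 0 1, Blk.u (by rw [transpose_neg, hY]), ?_, ?_⟩ <;>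
    · rw [fromBlocks_multiply]
      simp
  · refine ⟨fromBlocks 1 0 (-X) 1, Blk.v (by rw [transpose_neg, hX]), ?_, ?_⟩ <;>
    · rw [fromBlocks_multiply]
      simp

theorem Blk.mem {M : Matrix (κ ⊕ κ) (κ ⊕ κ) ℤ} (h : Blk M) : M ∈ symplecticGroup κ ℤ := by
  rcases h with ⟨A, B, hA, hB, rfl⟩ | ⟨Y, hY, rfl⟩ | ⟨X, hX, rfl⟩
  · rw [SymplecticGroup.fromBlocks_mem_iff]
    have h2 : B * Aᵀ = 1 := by
      have := congrArg transpose hB
      rwa [transpose_mul, transpose_transpose, transpose_one] at this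
    have h3 : Aᵀ * B = 1 := mul_eq_one_comm.mp h2
    simp [h3]
  · rw [SymplecticGroup.fromBlocks_mem_iff]
    simp [hY]
  · rw [SymplecticGroup.fromBlocks_mem_iff]
    simp [hX]

theorem Bd.one (N : ℕ) : Bd N (1 : Matrix (κ ⊕ κ) (κ ⊕ κ) ℤ) := ⟨[], by simp, by simp, by simp⟩

theorem Bd.mono {N M : ℕ} {g : Matrix (κ ⊕ κ) (κ ⊕ κ) ℤ} (h : Bd N g) (hNM : N ≤ M) : Bd M g := by
  obtain ⟨l, h1, h2, h3⟩ := h
  exact ⟨l, h1.trans hNM, h2, h3⟩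

theorem Bd.mul {N M : ℕ} {g h : Matrix (κ ⊕ κ) (κ ⊕ κ) ℤ} (hg : Bd N g) (hh : Bd M h) :
    Bd (N + M) (g * h) := by
  obtain ⟨l, h1, h2, h3⟩ := hg
  obtain ⟨l', h1', h2', h3'⟩ := hh
  refine ⟨l ++ l', by simp; omega, ?_, by simp [h3, h3']⟩
  intro x hx
  rcases List.mem_append.mp hx with h | h
  · exact h2 x h
  · exact h2' x h

theorem Bd.blk {M : Matrix (κ ⊕ κ) (κ ⊕ κ) ℤ} (h : Blk M) : Bd 1 M :=
  ⟨[M], by simp, by simpa using h, by simp⟩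

theorem Bd.mem {N : ℕ} {M : Matrix (κ ⊕ κ) (κ ⊕ κ) ℤ} (h : Bd N M) :
    M ∈ symplecticGroup κ ℤ := by
  obtain ⟨l, h1, h2, rfl⟩ := h
  exact Submonoid.list_prod_mem _ fun x hx => (h2 x hx).mem

theorem Bd.inv {N : ℕ} {g : Matrix (κ ⊕ κ) (κ ⊕ κ) ℤ} (hg : Bd N g) :
    ∃ h, Bd N h ∧ h * g = 1 ∧ g * h = 1 := by
  obtain ⟨l, h1, h2, rfl⟩ := hg
  induction l generalizing N with
  | nil => exact ⟨1, Bd.one _, by simp, by simp⟩
  | cons a l ih =>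
    obtain ⟨b, hb, hb1, hb2⟩ := (h2 a (by simp)).inv
    obtain ⟨h, hh, hh1, hh2⟩ := ih (N := N - 1) (by simp at h1; omega)
      (fun x hx => h2 x (by simp [hx]))
    have hN : 1 ≤ N := by simp at h1; omega
    refine ⟨h * b, (hh.mul (Bd.blk hb)).mono (by omega), ?_, ?_⟩
    · rw [List.prod_cons, mul_assoc, ← mul_assoc b, hb1, one_mul, hh1]
    · rw [List.prod_cons, mul_assoc, ← mul_assoc l.prod, hh2, one_mul, hb2]

theorem Bd.of_mul_left {N M : ℕ} {e g : Matrix (κ ⊕ κ) (κ ⊕ κ) ℤ} (he : Bd N e)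
    (h : Bd M (e * g)) : Bd (N + M) g := by
  obtain ⟨f, hf, hf1, hf2⟩ := he.inv
  have := hf.mul h
  rwa [← mul_assoc, hf1, one_mul] at this

theorem Bd.of_mul_right {N M : ℕ} {e g : Matrix (κ ⊕ κ) (κ ⊕ κ) ℤ} (he : Bd N e)
    (h : Bd M (g * e)) : Bd (M + N) g := by
  obtain ⟨f, hf, hf1, hf2⟩ := he.inv
  have := h.mul hf
  rwa [mul_assoc, hf2, mul_one] at this

/-! ### Reindexing -/

variable {ι : Type} [Fintype ι] [DecidableEq ι]

/-- reindexing along `e : ι ≃ κ` -/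
def ri (e : ι ≃ κ) (M : Matrix (ι ⊕ ι) (ι ⊕ ι) ℤ) : Matrix (κ ⊕ κ) (κ ⊕ κ) ℤ :=
  reindex (Equiv.sumCongr e e) (Equiv.sumCongr e e) M

theorem ri_mul (e : ι ≃ κ) (M N : Matrix (ι ⊕ ι) (ι ⊕ ι) ℤ) : ri e (M * N) = ri e M * ri e N := by
  simp only [ri, reindex_apply]
  rw [submatrix_mul_equiv]

theorem ri_one (e : ι ≃ κ) : ri e (1 : Matrix (ι ⊕ ι) (ι ⊕ ι) ℤ) = 1 := by
  simp [ri]

theorem ri_fromBlocks (e : ι ≃ κ) (A B C D : Matrix ι ι ℤ) :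
    ri e (fromBlocks A B C D) =
      fromBlocks (reindex e e A) (reindex e e B) (reindex e e C) (reindex e e D) := by
  ext i j
  rcases i with i | i <;> rcases j with j | j <;> simp [ri]

theorem Blk.ri (e : ι ≃ κ) {M : Matrix (ι ⊕ ι) (ι ⊕ ι) ℤ} (h : Blk M) : Blk (ri e M) := by
  rcases h with ⟨A, B, hA, hB, rfl⟩ | ⟨Y, hY, rfl⟩ | ⟨X, hX, rfl⟩
  · rw [ri_fromBlocks]
    have h0 : reindex e e (0 : Matrix ι ι ℤ) = 0 := by ext; simp
    rw [h0]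
    refine Blk.l ?_ ?_
    · rw [det_reindex_self, hA]
    · rw [transpose_reindex, reindex_apply, reindex_apply, submatrix_mul_equiv, hB]
      simp
  · rw [ri_fromBlocks]
    have h0 : reindex e e (0 : Matrix ι ι ℤ) = 0 := by ext; simp
    have h1 : reindex e e (1 : Matrix ι ι ℤ) = 1 := by simp
    rw [h0, h1]
    refine Blk.u ?_
    rw [transpose_reindex, hY]
  · rw [ri_fromBlocks]
    have h0 : reindex e e (0 : Matrix ι ι ℤ) = 0 := by ext; simp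
    have h1 : reindex e e (1 : Matrix ι ι ℤ) = 1 := by simp
    rw [h0, h1]
    refine Blk.v ?_
    rw [transpose_reindex, hX]

theorem ri_list_prod (e : ι ≃ κ) (l : List (Matrix (ι ⊕ ι) (ι ⊕ ι) ℤ)) :
    ri e l.prod = (l.map (ri e)).prod := by
  induction l with
  | nil => simp [ri_one]
  | cons a l ih => rw [List.prod_cons, ri_mul, ih, List.map_cons, List.prod_cons]

theorem Bd.ri (e : ι ≃ κ) {N : ℕ} {M : Matrix (ι ⊕ ι) (ι ⊕ ι) ℤ} (h : Bd N M) :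
    Bd N (ri e M) := by
  obtain ⟨l, h1, h2, rfl⟩ := h
  refine ⟨l.map (Vale.Agent.P092.R2.H381.ri e), by simpa using h1, ?_, (ri_list_prod e l).symm⟩
  intro x hx
  obtain ⟨y, hy, rfl⟩ := List.mem_map.mp hx
  exact (h2 y hy).ri e

theorem ri_symm (e : ι ≃ κ) (M : Matrix (κ ⊕ κ) (κ ⊕ κ) ℤ) : ri e (ri e.symm M) = M := by
  ext i j
  simp [ri, ← Equiv.sumCongr_symm]

theorem ri_mem (e : ι ≃ κ) {M : Matrix (ι ⊕ ι) (ι ⊕ ι) ℤ} (h : M ∈ symplecticGroup ι ℤ) :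
    ri e M ∈ symplecticGroup κ ℤ := by
  rw [SymplecticGroup.mem_iff] at h ⊢
  have hJ : J κ ℤ = ri e (J ι ℤ) := by
    have h0 : reindex e e (0 : Matrix ι ι ℤ) = 0 := by ext; simp
    have h1 : reindex e e (1 : Matrix ι ι ℤ) = 1 := by simp
    have h2 : reindex e e (-1 : Matrix ι ι ℤ) = -1 := by
      ext i j
      by_cases hij : i = j
      · subst hij; simp
      · have : e.symm i ≠ e.symm j := fun h => hij (e.symm.injective h)
        simp [hij, this]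
    rw [J, J, ri_fromBlocks, h0, h1, h2]
  have ht : (ri e M)ᵀ = ri e Mᵀ := by rw [ri, ri, transpose_reindex]
  rw [ht, hJ, ← ri_mul, ← ri_mul, h]

/-! ### Adding a coordinate -/

/-- `g` acting on the coordinates in `ι`, identity on the last coordinate -/
def ext (g : Matrix (ι ⊕ ι) (ι ⊕ ι) ℤ) :
    Matrix ((ι ⊕ Unit) ⊕ (ι ⊕ Unit)) ((ι ⊕ Unit) ⊕ (ι ⊕ Unit)) ℤ :=
  fromBlocks (fromBlocks g.toBlocks₁₁ 0 0 1) (fromBlocks g.toBlocks₁₂ 0 0 0)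
    (fromBlocks g.toBlocks₂₁ 0 0 0) (fromBlocks g.toBlocks₂₂ 0 0 1)

theorem ext_fromBlocks (A B C D : Matrix ι ι ℤ) :
    ext (fromBlocks A B C D) = fromBlocks (fromBlocks A 0 0 1) (fromBlocks B 0 0 0)
      (fromBlocks C 0 0 0) (fromBlocks D 0 0 1) := rfl

theorem ext_one : ext (1 : Matrix (ι ⊕ ι) (ι ⊕ ι) ℤ) = 1 := by
  rw [← fromBlocks_one, ext_fromBlocks, fromBlocks_one, fromBlocks_zero, fromBlocks_one]

theorem ext_mul (g h : Matrix (ι ⊕ ι) (ι ⊕ ι) ℤ) : ext (g * h) = ext g * ext h := by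
  rw [← fromBlocks_toBlocks g, ← fromBlocks_toBlocks h, fromBlocks_multiply, ext_fromBlocks,
    ext_fromBlocks, ext_fromBlocks, fromBlocks_multiply]
  simp only [fromBlocks_multiply, fromBlocks_add]
  simp

theorem Blk.ext {M : Matrix (ι ⊕ ι) (ι ⊕ ι) ℤ} (h : Blk M) : Blk (ext M) := by
  rcases h with ⟨A, B, hA, hB, rfl⟩ | ⟨Y, hY, rfl⟩ | ⟨X, hX, rfl⟩
  · rw [ext_fromBlocks]
    simp only [fromBlocks_zero]
    refine Blk.l ?_ ?_
    · rw [det_fromBlocks_zero₂₁, hA, det_one, one_mul]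
    · rw [fromBlocks_transpose, fromBlocks_multiply]
      simp [hB]
  · rw [ext_fromBlocks]
    simp only [fromBlocks_zero, fromBlocks_one]
    refine Blk.u ?_
    rw [fromBlocks_transpose, hY]
    simp
  · rw [ext_fromBlocks]
    simp only [fromBlocks_zero, fromBlocks_one]
    refine Blk.v ?_
    rw [fromBlocks_transpose, hX]
    simp

theorem ext_list_prod (l : List (Matrix (ι ⊕ ι) (ι ⊕ ι) ℤ)) :
    ext l.prod = (l.map ext).prod := by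
  induction l with
  | nil => simp [ext_one]
  | cons a l ih => rw [List.prod_cons, ext_mul, ih, List.map_cons, List.prod_cons]

theorem Bd.ext {N : ℕ} {M : Matrix (ι ⊕ ι) (ι ⊕ ι) ℤ} (h : Bd N M) : Bd N (ext M) := by
  obtain ⟨l, h1, h2, rfl⟩ := h
  refine ⟨l.map Vale.Agent.P092.R2.H381.ext, by simpa using h1, ?_, (ext_list_prod l).symm⟩
  intro x hx
  obtain ⟨y, hy, rfl⟩ := List.mem_map.mp hx
  exact (h2 y hy).ext

end Vale.Agent.P092.R2.H381
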