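import Vale.Agent.P092.R2.H381.Bg3
import Vale.Agent.P092.R2.H32.LR2
import Vale.Agent.P092.R2.H32.T3

/-!
Bounded generation of `Sp_{2n}(ℤ)`, `n ≥ 2`, and property (T) of `ℤ^{2n} ⋊ Sp_{2n}(ℤ)` and its
twist for `n ≥ 3`.
-/

namespace Vale.Agent.P092.R2.H381

open Matrix Vale.Agent.P092.R2.H559

theorem long_root : LR := H32.long_root

/-- `Sp_{2n}(ℤ)` is boundedly generated by the three kinds of blocks (`n ≥ 2`). -/
theorem bg_Sp {n : ℕ} (hn : 2 ≤ n) : H32.BG n :=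
  H32.BG.of_blk (bounded_generation long_root hn)

theorem propT_Gam {n : ℕ} (hn : 3 ≤ n) : H32.PropT (Gam n) :=
  H32.propT_Gam hn (bg_Sp (by omega))

theorem propT_Lam {n : ℕ} (hn : 3 ≤ n) : H32.PropT (Lam n) :=
  H32.propT_Lam hn (bg_Sp (by omega))

end Vale.Agent.P092.R2.H381
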