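import Vale.Agent.P092.R2.H381.Bg0
import Vale.Agent.P092.H350.Unimod

/-!
Unimodular vectors: transitivity of `SL_n(ℤ)` and of blocks in `Sp_{2n}(ℤ)`.
-/

set_option linter.all false

namespace Vale.Agent.P092.R2.H381

open Matrix

variable {κ : Type} [Fintype κ] [DecidableEq κ]

theorem transvection_mulVec (i j : κ) (c : ℤ) (x : κ → ℤ) :
    transvection i j c *ᵥ x = Function.update x i (x i + c * x j) := by
  ext k
  rw [transvection, add_mulVec, one_mulVec]
  by_cases hk : k = i
  · subst hk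
    simp [Matrix.mulVec, dotProduct, Matrix.single, Matrix.of_apply]
  · have hk' : ¬ i = k := fun h => hk h.symm
    simp [Matrix.mulVec, dotProduct, Matrix.single, Matrix.of_apply, hk, hk']

/-- the size used in the Euclidean algorithm -/
def sz (k₀ : κ) (x : κ → ℤ) : ℕ := ∑ i, (if i = k₀ then 1 else 2) * (x i).natAbs

theorem sz_update (k₀ i : κ) (x : κ → ℤ) (t : ℤ) (h : t.natAbs < (x i).natAbs) :
    sz k₀ (Function.update x i t) < sz k₀ x := by
  apply Finset.sum_lt_sum
  · intro j _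
    by_cases hj : j = i
    · subst hj
      rw [Function.update_self]
      exact Nat.mul_le_mul_left _ h.le
    · rw [Function.update_of_ne hj]
  · refine ⟨i, Finset.mem_univ _, ?_⟩
    rw [Function.update_self]
    split_ifs <;> omega

theorem sl_red (k₀ : κ) (n : ℕ) : ∀ x : κ → ℤ, sz k₀ x = n →
    ∃ A : Matrix κ κ ℤ, A.det = 1 ∧ ∃ d : ℤ, A *ᵥ x = Pi.single k₀ d := by
  induction n using Nat.strong_induction_on with
  | _ n ih =>
    intro x hx
    by_cases hall : ∀ i, i ≠ k₀ → x i = 0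
    · refine ⟨1, det_one, x k₀, ?_⟩
      rw [one_mulVec]
      ext i
      by_cases hi : i = k₀
      · subst hi; simp
      · simp [hi, hall i hi]
    · push Not at hall
      obtain ⟨i, hi, hxi⟩ := hall
      by_cases h0 : x k₀ = 0
      · -- move the entry to `k₀`
        let y := Function.update (Function.update x k₀ (x i)) i 0
        have hy : transvection i k₀ (-1) *ᵥ (transvection k₀ i 1 *ᵥ x) = y := by
          rw [transvection_mulVec, transvection_mulVec, h0, Function.update_self,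
            Function.update_of_ne hi]
          simp only [y]
          rw [zero_add, one_mul, neg_one_mul, add_neg_cancel]
        have hs : sz k₀ y < sz k₀ x := by
          have e1 : sz k₀ y + 2 * (x i).natAbs = sz k₀ x + (x i).natAbs := by
            simp only [sz]
            rw [← Finset.add_sum_erase _ _ (Finset.mem_univ k₀),
              ← Finset.add_sum_erase _ _ (Finset.mem_erase.mpr ⟨hi, Finset.mem_univ i⟩),
              ← Finset.add_sum_erase (s := Finset.univ)
                (fun j => (if j = k₀ then 1 else 2) * (x j).natAbs) (Finset.mem_univ k₀),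
              ← Finset.add_sum_erase (s := Finset.univ.erase k₀)
                (fun j => (if j = k₀ then 1 else 2) * (x j).natAbs)
                (Finset.mem_erase.mpr ⟨hi, Finset.mem_univ i⟩)]
            have e2 : ∑ j ∈ (Finset.univ.erase k₀).erase i,
                (if j = k₀ then 1 else 2) * (y j).natAbs =
                ∑ j ∈ (Finset.univ.erase k₀).erase i,
                (if j = k₀ then 1 else 2) * (x j).natAbs := by
              apply Finset.sum_congr rfl
              intro j hj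
              rw [Finset.mem_erase, Finset.mem_erase] at hj
              simp only [y]
              rw [Function.update_of_ne hj.1, Function.update_of_ne hj.2.1]
            rw [e2]
            have e3 : y k₀ = x i := by
              simp only [y]
              rw [Function.update_of_ne (Ne.symm hi), Function.update_self]
            have e4 : y i = 0 := by simp only [y]; rw [Function.update_self]
            rw [e3, e4, h0]
            simp [hi]
            ring
          have : 0 < (x i).natAbs := Int.natAbs_pos.mpr hxi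
          omega
        obtain ⟨A, hA, d, hd⟩ := ih _ (hx ▸ hs) y rfl
        refine ⟨A * (transvection i k₀ (-1) * transvection k₀ i 1), ?_, d, ?_⟩
        · rw [det_mul, det_mul, hA, det_transvection_of_ne _ _ hi,
            det_transvection_of_ne _ _ (Ne.symm hi)]
          norm_num
        · rw [← mulVec_mulVec, ← mulVec_mulVec, hy, hd]
      · rcases le_or_gt (x k₀).natAbs (x i).natAbs with hle | hlt
        · let y := Function.update x i (x i % x k₀)
          have hy : transvection i k₀ (-(x i / x k₀)) *ᵥ x = y := by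
            rw [transvection_mulVec]
            simp only [y]
            congr 1
            have := Int.emod_add_mul_ediv (x i) (x k₀)
            linarith [mul_comm (x k₀) (x i / x k₀)]
          have hs : sz k₀ y < sz k₀ x := by
            apply sz_update
            have h1 := Int.emod_nonneg (x i) h0
            have h2 := Int.emod_lt_abs (x i) h0
            rw [Int.abs_eq_natAbs] at h2
            generalize x i % x k₀ = m at h1 h2 ⊢
            omega
          obtain ⟨A, hA, d, hd⟩ := ih _ (hx ▸ hs) y rfl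
          refine ⟨A * transvection i k₀ (-(x i / x k₀)), ?_, d, ?_⟩
          · rw [det_mul, hA, det_transvection_of_ne _ _ hi, one_mul]
          · rw [← mulVec_mulVec, hy, hd]
        · let y := Function.update x k₀ (x k₀ % x i)
          have hy : transvection k₀ i (-(x k₀ / x i)) *ᵥ x = y := by
            rw [transvection_mulVec]
            simp only [y]
            congr 1
            have := Int.emod_add_mul_ediv (x k₀) (x i)
            linarith [mul_comm (x i) (x k₀ / x i)]
          have hs : sz k₀ y < sz k₀ x := by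
            apply sz_update
            have h1 := Int.emod_nonneg (x k₀) hxi
            have h2 := Int.emod_lt_abs (x k₀) hxi
            rw [Int.abs_eq_natAbs] at h2
            generalize x k₀ % x i = m at h1 h2 ⊢
            omega
          obtain ⟨A, hA, d, hd⟩ := ih _ (hx ▸ hs) y rfl
          refine ⟨A * transvection k₀ i (-(x k₀ / x i)), ?_, d, ?_⟩
          · rw [det_mul, hA, det_transvection_of_ne _ _ (Ne.symm hi), one_mul]
          · rw [← mulVec_mulVec, hy, hd]

theorem unimod_mulVec {ι : Type} [Fintype ι] [DecidableEq ι] {A A' : Matrix ι ι ℤ}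
    (hA : A' * A = 1) {x : ι → ℤ} (hx : ∃ w : ι → ℤ, w ⬝ᵥ x = 1) :
    ∃ w : ι → ℤ, w ⬝ᵥ (A *ᵥ x) = 1 := by
  obtain ⟨w, hw⟩ := hx
  refine ⟨w ᵥ* A', ?_⟩
  rw [← dotProduct_mulVec, mulVec_mulVec, hA, one_mulVec, hw]

theorem sl_unimod {k₀ k₁ : κ} (h01 : k₀ ≠ k₁) {x : κ → ℤ} (hx : ∃ w : κ → ℤ, w ⬝ᵥ x = 1) :
    ∃ A : Matrix κ κ ℤ, A.det = 1 ∧ A *ᵥ x = Pi.single k₀ 1 := by
  obtain ⟨A, hA, d, hd⟩ := sl_red k₀ _ x rfl
  have hAi : A⁻¹ * A = 1 := nonsing_inv_mul A (by rw [hA]; exact isUnit_one)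
  obtain ⟨w, hw⟩ := unimod_mulVec hAi hx
  rw [hd, dotProduct_single] at hw
  have hd1 : d = 1 ∨ d = -1 := Int.isUnit_iff.mp (isUnit_of_dvd_one ⟨w k₀, by rw [mul_comm]; exact hw.symm⟩)
  rcases hd1 with rfl | rfl
  · exact ⟨A, hA, hd⟩
  · refine ⟨transvection k₁ k₀ (-1) * transvection k₀ k₁ 2 * transvection k₁ k₀ (-1) * A, ?_, ?_⟩
    · rw [det_mul, det_mul, det_mul, hA, det_transvection_of_ne _ _ h01,
        det_transvection_of_ne _ _ h01.symm]
      norm_num
    · rw [← mulVec_mulVec, ← mulVec_mulVec, ← mulVec_mulVec, hd, transvection_mulVec,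
        transvection_mulVec, transvection_mulVec]
      ext i
      by_cases h0 : i = k₀
      · subst h0
        simp [h01, h01.symm]
      · by_cases h1 : i = k₁
        · subst h1
          simp [h01, h01.symm]
        · simp [h0, h1]

/-- symmetric matrix with prescribed `k₀` column -/
def sy (k₀ : κ) (z : κ → ℤ) : Matrix κ κ ℤ :=
  Matrix.of fun i j => if j = k₀ then z i else if i = k₀ then z j else 0

theorem sy_symm (k₀ : κ) (z : κ → ℤ) : (sy k₀ z)ᵀ = sy k₀ z := by
  ext i j
  simp only [sy, transpose_apply, of_apply]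
  by_cases hi : i = k₀
  · by_cases hj : j = k₀
    · rw [if_pos hi, if_pos hj, hi, hj]
    · rw [if_pos hi, if_neg hj, if_pos hi]
  · by_cases hj : j = k₀
    · rw [if_neg hi, if_pos hj, if_pos hj]
    · rw [if_neg hi, if_neg hj, if_neg hj, if_neg hi]

theorem sy_mulVec (k₀ : κ) (z : κ → ℤ) (d : ℤ) : sy k₀ z *ᵥ Pi.single k₀ d = d • z := by
  rw [mulVec_single]
  ext i
  simp [sy, mul_comm]

theorem stable_range {k₀ k₁ : κ} (h01 : k₀ ≠ k₁) {y : κ → ℤ} {d : ℤ}
    (h : ∀ q : ℕ, q.Prime → (q : ℤ) ∣ d → (∀ i, (q : ℤ) ∣ y i) → False) :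
    ∃ z : κ → ℤ, ∃ w : κ → ℤ, w ⬝ᵥ (y + d • z) = 1 := by
  classical
  -- make the entry at `k₁` nonzero or `d = 0`
  obtain ⟨s, hs⟩ : ∃ s : ℤ, d ≠ 0 → y k₁ + d * s ≠ 0 := by
    by_cases h0 : y k₁ = 0
    · exact ⟨1, fun hd => by rw [h0]; simpa using hd⟩
    · exact ⟨0, fun hd => by simpa using h0⟩
  let y' : κ → ℤ := y + d • Pi.single k₁ s
  have hy' : ∀ q : ℕ, q.Prime → (q : ℤ) ∣ d → (∀ i, (q : ℤ) ∣ y' i) → False := by
    intro q hq hqd hall
    refine h q hq hqd fun i => ?_
    have := hall i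
    simp only [y', Pi.add_apply, Pi.smul_apply, smul_eq_mul] at this
    exact (dvd_add_left (hqd.mul_right _)).mp this
  by_cases hd : d = 0
  · -- gcd of all entries is one
    obtain ⟨u, hu⟩ := Finset.gcd_eq_sum_mul (Finset.univ : Finset κ) y
    have hg : Finset.univ.gcd y = 1 := by
      have hn : (0 : ℤ) ≤ Finset.univ.gcd y := by
        rw [← Finset.normalize_gcd]
        exact Int.nonneg_of_normalize_eq_self (normalize_idem _)
      obtain ⟨m, hm⟩ := Int.eq_ofNat_of_zero_le hn
      by_contra hne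
      have hm1 : m ≠ 1 := by
        rintro rfl
        exact hne (by rw [hm]; rfl)
      obtain ⟨q, hq, hqm⟩ := Nat.exists_prime_and_dvd hm1
      refine h q hq (by rw [hd]; exact dvd_zero _) fun i => ?_
      have h1 : (q : ℤ) ∣ Finset.univ.gcd y := by rw [hm]; exact Int.natCast_dvd_natCast.mpr hqm
      exact h1.trans (Finset.gcd_dvd (Finset.mem_univ i))
    refine ⟨0, u, ?_⟩
    rw [smul_zero, add_zero, ← hg, hu, dotProduct_comm]
    rfl
  · let D : ℤ := (Finset.univ.erase k₀).gcd y'
    have hD : D ≠ 0 := by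
      intro h0
      rw [Finset.gcd_eq_zero_iff] at h0
      have := h0 k₁ (by simp [h01.symm])
      simp only [y', Pi.add_apply, Pi.smul_apply, smul_eq_mul, Pi.single_eq_same] at this
      exact hs hd this
    obtain ⟨t, ht⟩ := Vale.Agent.P092.H350.exists_coprime_add (x := y' k₀) (y := d) hD (by
      intro q hq hx hy hqD
      refine hy' q hq hy fun i => ?_
      by_cases hi : i = k₀
      · rw [hi]; exact hx
      · exact hqD.trans (Finset.gcd_dvd (by simp [hi])))
    obtain ⟨a, b, hab⟩ := ht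
    obtain ⟨u, hu⟩ := Finset.gcd_eq_sum_mul (Finset.univ.erase k₀) y'
    refine ⟨Pi.single k₁ s + Pi.single k₀ t, fun i => if i = k₀ then a else b * u i, ?_⟩
    have e0 : y + d • (Pi.single k₁ s + Pi.single k₀ t) = y' + d • Pi.single k₀ t := by
      rw [smul_add, ← add_assoc]
    rw [e0, dotProduct, ← Finset.add_sum_erase _ _ (Finset.mem_univ k₀)]
    have e2 : ∀ i ∈ Finset.univ.erase k₀, (if i = k₀ then a else b * u i) *
        (y' + d • (Pi.single k₀ t : κ → ℤ)) i = b * (y' i * u i) := by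
      intro i hi
      have hi' : i ≠ k₀ := (Finset.mem_erase.mp hi).1
      rw [if_neg hi', Pi.add_apply, Pi.smul_apply, Pi.single_eq_of_ne hi', smul_zero, add_zero]
      ring
    rw [Finset.sum_congr rfl e2, ← Finset.mul_sum, if_pos rfl, Pi.add_apply, Pi.smul_apply,
      Pi.single_eq_same, smul_eq_mul]
    have hu' : ∑ i ∈ Finset.univ.erase k₀, y' i * u i = D := hu.symm
    rw [hu']
    linarith [hab, mul_comm d t]

theorem fb_mulVec (A B C D : Matrix κ κ ℤ) (x y : κ → ℤ) :
    fromBlocks A B C D *ᵥ Sum.elim x y = Sum.elim (A *ᵥ x + B *ᵥ y) (C *ᵥ x + D *ᵥ y) := by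
  rw [fromBlocks_mulVec]
  rfl

/-- Every unimodular vector is moved to the basis vector by at most five blocks. -/
theorem column {k₀ k₁ : κ} (h01 : k₀ ≠ k₁) {v : κ ⊕ κ → ℤ} (hv : ∃ w : κ ⊕ κ → ℤ, w ⬝ᵥ v = 1) :
    ∃ P, Bd 5 P ∧ P *ᵥ v = Pi.single (Sum.inl k₀) 1 := by
  obtain ⟨x, y, rfl⟩ : ∃ x y : κ → ℤ, v = Sum.elim x y :=
    ⟨v ∘ Sum.inl, v ∘ Sum.inr, (Sum.elim_comp_inl_inr v).symm⟩
  -- step 1
  obtain ⟨A, hA, d, hd⟩ := sl_red k₀ _ x rfl
  have hAu : IsUnit A.det := by rw [hA]; exact isUnit_one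
  let P1 : Matrix (κ ⊕ κ) (κ ⊕ κ) ℤ := fromBlocks A 0 0 (A⁻¹)ᵀ
  have hP1 : Blk P1 := Blk.l hA (by rw [transpose_transpose, mul_nonsing_inv A hAu])
  let y1 : κ → ℤ := (A⁻¹)ᵀ *ᵥ y
  have e1 : P1 *ᵥ Sum.elim x y = Sum.elim (Pi.single k₀ d) y1 := by
    simp only [P1]
    rw [fb_mulVec, hd, zero_mulVec, zero_mulVec, add_zero, zero_add]
  obtain ⟨P1', _, hP1', _⟩ := hP1.inv
  have hv1 := unimod_mulVec hP1' hv
  rw [e1] at hv1
  -- step 2
  obtain ⟨z, w2, hw2⟩ := stable_range h01 (y := y1) (d := d) (by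
    intro q hq hqd hall
    obtain ⟨w, hw⟩ := hv1
    have : (q : ℤ) ∣ 1 := by
      rw [← hw, dotProduct, Fintype.sum_sum_type]
      refine dvd_add (Finset.dvd_sum fun i _ => ?_) (Finset.dvd_sum fun i _ => ?_)
      · rw [Sum.elim_inl]
        by_cases hi : i = k₀
        · subst hi; rw [Pi.single_eq_same]; exact hqd.mul_left _
        · rw [Pi.single_eq_of_ne hi, mul_zero]; exact dvd_zero _
      · rw [Sum.elim_inr]; exact (hall i).mul_left _
    exact (Nat.prime_iff_prime_int.mp hq).not_isUnit (isUnit_of_dvd_one this))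
  let P2 : Matrix (κ ⊕ κ) (κ ⊕ κ) ℤ := fromBlocks 1 0 (sy k₀ z) 1
  have hP2 : Blk P2 := Blk.v (sy_symm _ _)
  have e2 : P2 *ᵥ Sum.elim (Pi.single k₀ d) y1 = Sum.elim (Pi.single k₀ d) (y1 + d • z) := by
    simp only [P2]
    rw [fb_mulVec, one_mulVec, zero_mulVec, add_zero, sy_mulVec, one_mulVec, add_comm]
  -- step 3
  obtain ⟨C, hC, hC1⟩ := sl_unimod h01 ⟨w2, hw2⟩
  have hCu : IsUnit C.det := by rw [hC]; exact isUnit_one
  let P3 : Matrix (κ ⊕ κ) (κ ⊕ κ) ℤ := fromBlocks (C⁻¹)ᵀ 0 0 C
  have hP3 : Blk P3 := by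
    refine Blk.l ?_ ?_
    · rw [det_transpose, det_nonsing_inv, hC]; simp
    · rw [← transpose_mul, mul_nonsing_inv C hCu, transpose_one]
  let x3 : κ → ℤ := (C⁻¹)ᵀ *ᵥ Pi.single k₀ d
  have e3 : P3 *ᵥ Sum.elim (Pi.single k₀ d) (y1 + d • z) = Sum.elim x3 (Pi.single k₀ 1) := by
    simp only [P3]
    rw [fb_mulVec, hC1, zero_mulVec, zero_mulVec, add_zero, zero_add]
  -- step 4
  let P4 : Matrix (κ ⊕ κ) (κ ⊕ κ) ℤ := fromBlocks 1 (sy k₀ (Pi.single k₀ 1 - x3)) 0 1
  have hP4 : Blk P4 := Blk.u (sy_symm _ _)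
  have e4 : P4 *ᵥ Sum.elim x3 (Pi.single k₀ 1) = Sum.elim (Pi.single k₀ 1) (Pi.single k₀ 1) := by
    simp only [P4]
    rw [fb_mulVec, one_mulVec, one_mulVec, sy_mulVec, one_smul, zero_mulVec, zero_add,
      add_sub_cancel]
  -- step 5
  let P5 : Matrix (κ ⊕ κ) (κ ⊕ κ) ℤ := fromBlocks 1 0 (sy k₀ (-Pi.single k₀ 1)) 1
  have hP5 : Blk P5 := Blk.v (sy_symm _ _)
  have e5 : P5 *ᵥ Sum.elim (Pi.single k₀ 1) (Pi.single k₀ 1) = Pi.single (Sum.inl k₀) 1 := by
    simp only [P5]
    rw [fb_mulVec, one_mulVec, sy_mulVec, one_smul, zero_mulVec, add_zero,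
      neg_add_cancel]
    ext i
    rcases i with i | i
    · by_cases hi : i = k₀
      · subst hi; simp
      · have : (Sum.inl i : κ ⊕ κ) ≠ Sum.inl k₀ := fun h => hi (Sum.inl_injective h)
        simp [hi, this]
    · simp
  refine ⟨P5 * (P4 * (P3 * (P2 * P1))), ?_, ?_⟩
  · have := (Bd.blk hP5).mul ((Bd.blk hP4).mul ((Bd.blk hP3).mul ((Bd.blk hP2).mul
      (Bd.blk hP1))))
    exact this
  · rw [← mulVec_mulVec, ← mulVec_mulVec, ← mulVec_mulVec, ← mulVec_mulVec, e1, e2, e3, e4, e5]

end Vale.Agent.P092.R2.H381
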