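import Vale.Agent.P092.R2.H381.Bg1

/-!
Stabiliser of a basis vector, and reduction of the rank.
-/

set_option linter.all false

namespace Vale.Agent.P092.R2.H381

open Matrix

variable {κ : Type} [Fintype κ] [DecidableEq κ]

theorem J_mulVec_inl (k₀ : κ) : J κ ℤ *ᵥ Pi.single (Sum.inl k₀) 1 = Pi.single (Sum.inr k₀) 1 := by
  rw [mulVec_single_one]
  ext i
  rcases i with i | i
  · simp [J]
  · by_cases h : i = k₀
    · subst h; simp [J]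
    · have : (Sum.inr i : κ ⊕ κ) ≠ Sum.inr k₀ := fun h' => h (Sum.inr_injective h')
      simp [J, h, this]

theorem stab_aux {k₀ : κ} {M : Matrix (κ ⊕ κ) (κ ⊕ κ) ℤ} (hM : M ∈ symplecticGroup κ ℤ)
    (h : M *ᵥ Pi.single (Sum.inl k₀) 1 = Pi.single (Sum.inl k₀) 1) :
    Mᵀ *ᵥ Pi.single (Sum.inr k₀) 1 = Pi.single (Sum.inr k₀) 1 := by
  have h1 := SymplecticGroup.mem_iff'.mp hM
  have h2 := congrArg (fun T => T *ᵥ (Pi.single (Sum.inl k₀) 1 : κ ⊕ κ → ℤ)) h1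
  rw [← mulVec_mulVec, h, ← mulVec_mulVec, J_mulVec_inl] at h2
  exact h2

/-- trivial on the coordinate pair `k₀` -/
structure Triv (k₀ : κ) (h : Matrix (κ ⊕ κ) (κ ⊕ κ) ℤ) : Prop where
  a : h *ᵥ Pi.single (Sum.inl k₀) 1 = Pi.single (Sum.inl k₀) 1
  b : h *ᵥ Pi.single (Sum.inr k₀) 1 = Pi.single (Sum.inr k₀) 1
  c : hᵀ *ᵥ Pi.single (Sum.inl k₀) 1 = Pi.single (Sum.inl k₀) 1
  d : hᵀ *ᵥ Pi.single (Sum.inr k₀) 1 = Pi.single (Sum.inr k₀) 1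

theorem single_inl (k₀ : κ) :
    (Pi.single (Sum.inl k₀) 1 : κ ⊕ κ → ℤ) = Sum.elim (Pi.single k₀ 1) 0 := by
  ext i
  rcases i with i | i
  · by_cases h : i = k₀
    · subst h; simp
    · have : (Sum.inl i : κ ⊕ κ) ≠ Sum.inl k₀ := fun h' => h (Sum.inl_injective h')
      simp [h, this]
  · simp

theorem stab {k₀ : κ} {g : Matrix (κ ⊕ κ) (κ ⊕ κ) ℤ} (hg : g ∈ symplecticGroup κ ℤ)
    (h : g *ᵥ Pi.single (Sum.inl k₀) 1 = Pi.single (Sum.inl k₀) 1) :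
    ∃ f, Bd 2 f ∧ Triv k₀ (g * f) := by
  obtain ⟨r, s, hrs⟩ : ∃ r s : κ → ℤ, gᵀ *ᵥ Pi.single (Sum.inl k₀) 1 = Sum.elim r s :=
    ⟨_, _, (Sum.elim_comp_inl_inr _).symm⟩
  have hr : r k₀ = 1 := by
    have h1 := congrFun hrs (Sum.inl k₀)
    have h2 := congrFun h (Sum.inl k₀)
    rw [mulVec_single_one] at h1 h2
    simp only [Sum.elim_inl, Matrix.col_apply, transpose_apply, Pi.single_eq_same] at h1 h2
    rw [← h1, h2]
  let u : κ → ℤ := Pi.single k₀ 1 - r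
  have hu : u k₀ = 0 := by simp [u, hr]
  let A : Matrix κ κ ℤ := 1 + vecMulVec (Pi.single k₀ 1) u
  let B : Matrix κ κ ℤ := 1 - vecMulVec u (Pi.single k₀ 1)
  have hAd : A.det = 1 := by
    simp only [A]
    rw [vecMulVec_eq Unit, det_one_add_replicateCol_mul_replicateRow]
    simp [hu]
  have hAB : A * Bᵀ = 1 := by
    simp only [A, B]
    rw [transpose_sub, transpose_one, transpose_vecMulVec, add_mul, one_mul, mul_sub, mul_one,
      vecMulVec_mul_vecMulVec]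
    simp [hu]
  have hBA : B * Aᵀ = 1 := by
    have := congrArg transpose hAB
    rwa [transpose_mul, transpose_transpose, transpose_one] at this
  let L : Matrix (κ ⊕ κ) (κ ⊕ κ) ℤ := fromBlocks A 0 0 B
  have hL : Blk L := Blk.l hAd hAB
  let s' : κ → ℤ := Bᵀ *ᵥ s
  let U : Matrix (κ ⊕ κ) (κ ⊕ κ) ℤ := fromBlocks 1 (sy k₀ (-s')) 0 1
  have hU : Blk U := Blk.u (sy_symm _ _)
  refine ⟨L * U, (Bd.blk hL).mul (Bd.blk hU), ?_⟩
  have hmem : g * (L * U) ∈ symplecticGroup κ ℤ := mul_mem hg (mul_mem hL.mem hU.mem)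
  have ha : (g * (L * U)) *ᵥ Pi.single (Sum.inl k₀) 1 = Pi.single (Sum.inl k₀) 1 := by
    have hUx : U *ᵥ Pi.single (Sum.inl k₀) 1 = Pi.single (Sum.inl k₀) 1 := by
      simp only [U]
      rw [single_inl, fb_mulVec, one_mulVec, mulVec_zero, zero_mulVec, mulVec_zero, add_zero,
        add_zero]
    have hLx : L *ᵥ Pi.single (Sum.inl k₀) 1 = Pi.single (Sum.inl k₀) 1 := by
      simp only [L]
      rw [single_inl, fb_mulVec, mulVec_zero, zero_mulVec, mulVec_zero, add_zero, add_zero]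
      simp only [A]
      rw [add_mulVec, one_mulVec, vecMulVec_mulVec]
      simp [hu]
    rw [← mulVec_mulVec, ← mulVec_mulVec, hUx, hLx, h]
  have hc : (g * (L * U))ᵀ *ᵥ Pi.single (Sum.inl k₀) 1 = Pi.single (Sum.inl k₀) 1 := by
    rw [transpose_mul, transpose_mul, ← mulVec_mulVec, ← mulVec_mulVec, hrs]
    simp only [L, U]
    rw [fromBlocks_transpose, fromBlocks_transpose, fb_mulVec, fb_mulVec]
    simp only [transpose_zero, zero_mulVec, transpose_one, one_mulVec, add_zero, zero_add,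
      sy_symm]
    have hAr : Aᵀ *ᵥ r = Pi.single k₀ 1 := by
      simp only [A]
      rw [transpose_add, transpose_one, transpose_vecMulVec, add_mulVec, one_mulVec,
        vecMulVec_mulVec]
      simp [hr, u]
    rw [hAr, sy_mulVec, one_smul, single_inl]
    simp [s']
  refine ⟨ha, ?_, hc, stab_aux hmem ha⟩
  have := stab_aux (M := (g * (L * U))ᵀ) (SymplecticGroup.transpose_mem hmem) hc
  rwa [transpose_transpose] at this

variable {ι : Type} [Fintype ι] [DecidableEq ι]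

theorem ext_mem_iff {g : Matrix (ι ⊕ ι) (ι ⊕ ι) ℤ} :
    ext g ∈ symplecticGroup (ι ⊕ Unit) ℤ ↔ g ∈ symplecticGroup ι ℤ := by
  rw [← fromBlocks_toBlocks g, ext_fromBlocks, SymplecticGroup.fromBlocks_mem_iff,
    SymplecticGroup.fromBlocks_mem_iff]
  simp only [fromBlocks_transpose, fromBlocks_multiply, fromBlocks_inj, ← fromBlocks_one,
    sub_eq_add_neg, fromBlocks_neg, fromBlocks_add]
  simp

theorem triv_ext {h : Matrix ((ι ⊕ Unit) ⊕ (ι ⊕ Unit)) ((ι ⊕ Unit) ⊕ (ι ⊕ Unit)) ℤ}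
    (ht : Triv (Sum.inr ()) h) : ∃ h' : Matrix (ι ⊕ ι) (ι ⊕ ι) ℤ, h = ext h' := by
  refine ⟨fromBlocks h.toBlocks₁₁.toBlocks₁₁ h.toBlocks₁₂.toBlocks₁₁ h.toBlocks₂₁.toBlocks₁₁
    h.toBlocks₂₂.toBlocks₁₁, ?_⟩
  obtain ⟨ha, hb, hc, hd⟩ := ht
  rw [mulVec_single_one] at ha hb hc hd
  have ha' : ∀ i, h i (Sum.inl (Sum.inr ())) = (Pi.single (Sum.inl (Sum.inr ())) 1 :
    (ι ⊕ Unit) ⊕ (ι ⊕ Unit) → ℤ) i := fun i => congrFun ha i
  have hb' : ∀ i, h i (Sum.inr (Sum.inr ())) = (Pi.single (Sum.inr (Sum.inr ())) 1 :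
    (ι ⊕ Unit) ⊕ (ι ⊕ Unit) → ℤ) i := fun i => congrFun hb i
  have hc' : ∀ i, h (Sum.inl (Sum.inr ())) i = (Pi.single (Sum.inl (Sum.inr ())) 1 :
    (ι ⊕ Unit) ⊕ (ι ⊕ Unit) → ℤ) i := fun i => congrFun hc i
  have hd' : ∀ i, h (Sum.inr (Sum.inr ())) i = (Pi.single (Sum.inr (Sum.inr ())) 1 :
    (ι ⊕ Unit) ⊕ (ι ⊕ Unit) → ℤ) i := fun i => congrFun hd i
  rw [ext_fromBlocks]
  ext i j
  rcases i with (i | ⟨⟩) | (i | ⟨⟩) <;> rcases j with (j | ⟨⟩) | (j | ⟨⟩) <;>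
    simp [ha', hb', hc', hd', toBlocks₁₁, toBlocks₁₂, toBlocks₂₁, toBlocks₂₂]

/-- bounded generation of `Sp(κ)` by blocks -/
def BGp (κ : Type) [Fintype κ] [DecidableEq κ] : Prop :=
  ∃ N, ∀ g ∈ symplecticGroup κ ℤ, Bd N g

theorem unimod_col {g : Matrix (κ ⊕ κ) (κ ⊕ κ) ℤ} (hg : g ∈ symplecticGroup κ ℤ) (k₀ : κ) :
    ∃ w : κ ⊕ κ → ℤ, w ⬝ᵥ (g *ᵥ Pi.single (Sum.inl k₀) 1) = 1 := by
  have h1 : -(J κ ℤ * gᵀ * J κ ℤ) * g = 1 := by
    rw [neg_mul]; exact SymplecticGroup.inv_left_mul_aux hg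
  exact unimod_mulVec h1 ⟨Pi.single (Sum.inl k₀) 1, by simp⟩

theorem reduce {k₀ k₁ : κ} (h01 : k₀ ≠ k₁) {g : Matrix (κ ⊕ κ) (κ ⊕ κ) ℤ}
    (hg : g ∈ symplecticGroup κ ℤ) :
    ∃ P f, Bd 5 P ∧ Bd 2 f ∧ P * g * f ∈ symplecticGroup κ ℤ ∧ Triv k₀ (P * g * f) := by
  obtain ⟨P, hP, hP1⟩ := column h01 (unimod_col hg k₀)
  rw [mulVec_mulVec] at hP1
  obtain ⟨f, hf, hf1⟩ := stab (mul_mem hP.mem hg) hP1
  exact ⟨P, f, hP, hf, mul_mem (mul_mem hP.mem hg) hf.mem, hf1⟩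

theorem BGp.step [Nonempty ι] (h : BGp ι) : BGp (ι ⊕ Unit) := by
  obtain ⟨N, hN⟩ := h
  refine ⟨N + 7, fun g hg => ?_⟩
  obtain ⟨i⟩ := ‹Nonempty ι›
  obtain ⟨P, f, hP, hf, hm, ht⟩ := reduce (k₀ := (Sum.inr () : ι ⊕ Unit)) (k₁ := Sum.inl i)
    (by simp) hg
  obtain ⟨h', hh'⟩ := triv_ext ht
  rw [hh', ext_mem_iff] at hm
  have h1 : Bd N (P * g * f) := by rw [hh']; exact (hN _ hm).ext
  have h2 : Bd (N + 2) (P * g) := hf.of_mul_right h1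
  exact (hP.of_mul_left h2).mono (by omega)

theorem BGp.equiv (e : ι ≃ κ) (h : BGp ι) : BGp κ := by
  obtain ⟨N, hN⟩ := h
  refine ⟨N, fun g hg => ?_⟩
  have := (hN _ (ri_mem e.symm hg)).ri e
  rwa [ri_symm] at this

end Vale.Agent.P092.R2.H381
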