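import Vale.Agent.P092.R2.H381.Bg2

/-!
Bounded generation of `Sp_{2n}(ℤ)` from the case of long root matrices in `Sp_4(ℤ)`.
-/

set_option linter.all false

namespace Vale.Agent.P092.R2.H381

open Matrix

/-- the matrix `[[a, b], [c, d]]` in the first coordinate pair of `Sp_4(ℤ)` -/
def lr (a b c d : ℤ) : Matrix (Fin 2 ⊕ Fin 2) (Fin 2 ⊕ Fin 2) ℤ :=
  fromBlocks !![a, 0; 0, 1] !![b, 0; 0, 0] !![c, 0; 0, 0] !![d, 0; 0, 1]

/-- the long root statement -/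
def LR : Prop := ∃ N, ∀ a b c d : ℤ, a * d - b * c = 1 → Bd N (lr a b c d)

/-- `Unit ⊕ Unit ≃ Fin 2` -/
def e2 : Unit ⊕ Unit ≃ Fin 2 where
  toFun x := Sum.elim (fun _ => 0) (fun _ => 1) x
  invFun i := if i = 0 then Sum.inl () else Sum.inr ()
  left_inv x := by rcases x with ⟨⟩ | ⟨⟩ <;> rfl
  right_inv i := by fin_cases i <;> rfl

theorem BGp.base (h : LR) : BGp (Unit ⊕ Unit) := by
  obtain ⟨N, hN⟩ := h
  refine ⟨N + 7, fun g hg => ?_⟩
  obtain ⟨P, f, hP, hf, hm, ht⟩ := reduce (k₀ := (Sum.inr () : Unit ⊕ Unit)) (k₁ := Sum.inl ())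
    (by simp) hg
  obtain ⟨h', hh'⟩ := triv_ext ht
  rw [hh', ext_mem_iff] at hm
  have h1 : Bd N (P * g * f) := by
    rw [hh']
    have hd : h' (Sum.inl ()) (Sum.inl ()) * h' (Sum.inr ()) (Sum.inr ()) -
        h' (Sum.inl ()) (Sum.inr ()) * h' (Sum.inr ()) (Sum.inl ()) = 1 := by
      rw [← fromBlocks_toBlocks h', SymplecticGroup.fromBlocks_mem_iff] at hm
      have h3 := congrFun (congrFun hm.2.2 ()) ()
      simp [Matrix.mul_apply, toBlocks₁₁, toBlocks₁₂, toBlocks₂₁, toBlocks₂₂] at h3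
      linarith
    have h4 := (hN _ _ _ _ hd).ri e2.symm
    have h5 : ext h' = ri e2.symm (lr (h' (Sum.inl ()) (Sum.inl ()))
        (h' (Sum.inl ()) (Sum.inr ())) (h' (Sum.inr ()) (Sum.inl ()))
        (h' (Sum.inr ()) (Sum.inr ()))) := by
      rw [lr, ri_fromBlocks, ext]
      congr 1 <;>
      · ext i j
        rcases i with ⟨⟩ | ⟨⟩ <;> rcases j with ⟨⟩ | ⟨⟩ <;>
          simp [e2, toBlocks₁₁, toBlocks₁₂, toBlocks₂₁, toBlocks₂₂]
    rw [h5]
    exact h4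
  have h2 : Bd (N + 2) (P * g) := hf.of_mul_right h1
  exact (hP.of_mul_left h2).mono (by omega)

theorem BGp.fin (h : LR) (n : ℕ) (hn : 2 ≤ n) : BGp (Fin n) := by
  induction n, hn using Nat.le_induction with
  | base => exact (BGp.base h).equiv e2
  | succ n hn ih =>
    haveI : Nonempty (Fin n) := ⟨⟨0, by omega⟩⟩
    exact ih.step.equiv (Fintype.equivOfCardEq (by simp))

theorem Bd.subtype {κ : Type} [Fintype κ] [DecidableEq κ] {N : ℕ} {g : symplecticGroup κ ℤ}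
    (h : Bd N (g : Matrix (κ ⊕ κ) (κ ⊕ κ) ℤ)) :
    ∃ l : List (symplecticGroup κ ℤ), l.length ≤ N ∧
      (∀ x ∈ l, Blk (x : Matrix (κ ⊕ κ) (κ ⊕ κ) ℤ)) ∧ l.prod = g := by
  obtain ⟨l, h1, h2, h3⟩ := h
  have key : ∀ l : List (Matrix (κ ⊕ κ) (κ ⊕ κ) ℤ), (∀ x ∈ l, Blk x) →
      ∃ l' : List (symplecticGroup κ ℤ), l'.length = l.length ∧
      (∀ x ∈ l', Blk (x : Matrix (κ ⊕ κ) (κ ⊕ κ) ℤ)) ∧
      ((l'.prod : symplecticGroup κ ℤ) : Matrix (κ ⊕ κ) (κ ⊕ κ) ℤ) = l.prod := by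
    intro l
    induction l with
    | nil => intro _; exact ⟨[], rfl, by simp, by simp⟩
    | cons a l ih =>
      intro hl
      obtain ⟨l', h1, h2, h3⟩ := ih fun x hx => hl x (by simp [hx])
      have ha := hl a (by simp)
      refine ⟨⟨a, ha.mem⟩ :: l', by simp [h1], ?_, ?_⟩
      · intro x hx
        rcases List.mem_cons.mp hx with rfl | hx
        · exact ha
        · exact h2 x hx
      · rw [List.prod_cons, List.prod_cons, Submonoid.coe_mul, h3]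
  obtain ⟨l', h4, h5, h6⟩ := key l h2
  exact ⟨l', by omega, h5, Subtype.ext (h6.trans h3)⟩

/-- Bounded generation of `Sp_{2n}(ℤ)` by blocks, from the long root statement. -/
theorem bounded_generation (h : LR) {n : ℕ} (hn : 2 ≤ n) :
    ∃ N : ℕ, ∀ g : symplecticGroup (Fin n) ℤ, ∃ l : List (symplecticGroup (Fin n) ℤ),
      l.length ≤ N ∧ (∀ x ∈ l, Blk (x : Matrix (Fin n ⊕ Fin n) (Fin n ⊕ Fin n) ℤ)) ∧
      l.prod = g := by
  obtain ⟨N, hN⟩ := BGp.fin h n hn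
  exact ⟨N, fun g => (hN g g.2).subtype⟩

end Vale.Agent.P092.R2.H381
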