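import Vale.Agent.P092.R2.H559.Surj

/-!
`Λ` has index `4 ^ n` in `ℤ^{2n} ⋊ Sp_{2n}(ℤ)`.
-/

namespace Vale.Agent.P092.R2.H381

open Matrix Vale.Agent.P092.R2.H559

theorem inl_mem_iff {n : ℕ} {u : Lat n} :
    (SemidirectProduct.inl (Multiplicative.ofAdd u) : Gam n) ∈ Lam n ↔ ∀ i, Even (u i) := by
  constructor
  · intro h i
    have h1 : ∀ m : Lat n, Even (om u m) := by
      intro m
      have h2 : Even (om u m + qf m + qf (mt (1 : Sp n)⁻¹ *ᵥ m)) := h m
      rw [inv_one, mt_one, add_assoc] at h2
      exact (Int.even_add.mp h2).mpr ⟨_, rfl⟩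
    rcases i with i | i
    · have h2 := h1 (Pi.single (Sum.inr i) 1)
      simpa [om, Pi.single_apply] using h2
    · have h2 := h1 (Pi.single (Sum.inl i) 1)
      simpa [om, Pi.single_apply] using h2
  · intro h
    choose w hw using h
    have : u = w + w := funext hw
    rw [this]
    exact double_mem_Lam w

theorem index_Lam (n : ℕ) : (Lam n).index = 4 ^ n := by
  let F : (Fin n ⊕ Fin n → Fin 2) → Gam n ⧸ Lam n := fun v =>
    QuotientGroup.mk (SemidirectProduct.inl (Multiplicative.ofAdd fun i => ((v i : ℕ) : ℤ)))
  have hF : Function.Bijective F := by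
    constructor
    · intro v v' h
      have h1 := QuotientGroup.eq.mp h
      rw [← map_inv, ← map_mul, ← ofAdd_neg, ← ofAdd_add, inl_mem_iff] at h1
      funext i
      have h2 := h1 i
      simp only [Pi.add_apply, Pi.neg_apply] at h2
      obtain ⟨k, hk⟩ := h2
      have a1 := (v i).isLt
      have a2 := (v' i).isLt
      apply Fin.ext
      omega
    · intro q
      induction q using QuotientGroup.induction_on with
      | H x =>
        obtain ⟨y, hy, hyr⟩ := exists_Lam x.right
        have hx : x * y⁻¹ = SemidirectProduct.inl (x * y⁻¹).left := by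
          ext1
          · rfl
          · rw [SemidirectProduct.mul_right, SemidirectProduct.inv_right, hyr, mul_inv_cancel]
            rfl
        set w : Lat n := Multiplicative.toAdd (x * y⁻¹).left with hw
        have hx' : x * y⁻¹ = SemidirectProduct.inl (Multiplicative.ofAdd w) := hx
        refine ⟨fun i => ⟨(w i % 2).toNat, by omega⟩, ?_⟩
        apply QuotientGroup.eq.mpr
        have e : SemidirectProduct.inl (Multiplicative.ofAdd w) * y = x := by
          rw [← hx', inv_mul_cancel_right]
        suffices h : (SemidirectProduct.inl (Multiplicative.ofAdd fun i => (((⟨(w i % 2).toNat,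
            by omega⟩ : Fin 2) : ℕ) : ℤ)) : Gam n)⁻¹ *
            (SemidirectProduct.inl (Multiplicative.ofAdd w) * y) ∈ Lam n by
          rwa [e] at h
        rw [← mul_assoc, ← map_inv, ← map_mul, ← ofAdd_neg, ← ofAdd_add]
        refine (Lam n).mul_mem (inl_mem_iff.mpr fun i => ?_) hy
        simp only [Pi.add_apply, Pi.neg_apply]
        refine ⟨w i / 2, ?_⟩
        omega
  rw [Subgroup.index, ← Nat.card_eq_of_bijective F hF]
  simp [pow_add, ← mul_pow]

end Vale.Agent.P092.R2.H381
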