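import Vale.Agent.P092.H160.Basic

/-!
Multiplication by unimodular functions and composition with measure preserving maps on `L²`,
transported to `ℓ²(A)` by a basis of characters.
-/

set_option linter.all false

open MeasureTheory ContinuousLinearMap
open scoped ENNReal ComplexConjugate

namespace Vale.Agent.P092.R2.H381

open Vale.Agent.P092.H160

section Lp

variable {X : Type} [MeasurableSpace X] {μ : Measure X}

/-- a measurable function with values of modulus one -/
structure Uni (X : Type) [MeasurableSpace X] where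
  f : X → ℂ
  meas : Measurable f
  norm : ∀ x, ‖f x‖ = 1

theorem Uni.memLp (w : Uni X) {g : X → ℂ} (hg : MemLp g 2 μ) :
    MemLp (fun x => w.f x * g x) 2 μ := by
  refine hg.congr_norm (w.meas.aestronglyMeasurable.mul hg.1) ?_
  filter_upwards with x
  rw [norm_mul, w.norm, one_mul]

/-- multiplication by `w` -/
noncomputable def MW (μ : Measure X) (w : Uni X) : Lp ℂ 2 μ →ₗᵢ[ℂ] Lp ℂ 2 μ where
  toFun g := (w.memLp (Lp.memLp g)).toLp _
  map_add' g g' := by
    ext1
    filter_upwards [(w.memLp (Lp.memLp (g + g'))).coeFn_toLp, (w.memLp (Lp.memLp g)).coeFn_toLp,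
      (w.memLp (Lp.memLp g')).coeFn_toLp, Lp.coeFn_add g g',
      Lp.coeFn_add ((w.memLp (Lp.memLp g)).toLp _) ((w.memLp (Lp.memLp g')).toLp _)] with
      x h1 h2 h3 h4 h5
    rw [h1, h5, Pi.add_apply, h2, h3, h4, Pi.add_apply, mul_add]
  map_smul' c g := by
    ext1
    filter_upwards [(w.memLp (Lp.memLp (c • g))).coeFn_toLp, (w.memLp (Lp.memLp g)).coeFn_toLp,
      Lp.coeFn_smul c g, Lp.coeFn_smul c ((w.memLp (Lp.memLp g)).toLp _)] with x h1 h2 h3 h4
    rw [RingHom.id_apply, h1, h4, Pi.smul_apply, h2, h3, Pi.smul_apply, smul_eq_mul, smul_eq_mul]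
    ring
  norm_map' g := by
    change ‖(w.memLp (Lp.memLp g)).toLp _‖ = ‖g‖
    rw [Lp.norm_toLp, Lp.norm_def]
    congr 1
    apply eLpNorm_congr_norm_ae
    filter_upwards with x
    rw [norm_mul, w.norm, one_mul]

theorem MW_coe (w : Uni X) (g : Lp ℂ 2 μ) : MW μ w g =ᵐ[μ] fun x => w.f x * g x :=
  (w.memLp (Lp.memLp g)).coeFn_toLp

theorem MW_toLp (w : Uni X) {g : X → ℂ} (hg : MemLp g 2 μ) :
    MW μ w (hg.toLp g) = (w.memLp hg).toLp _ := by
  ext1
  filter_upwards [MW_coe w (hg.toLp g), hg.coeFn_toLp, (w.memLp hg).coeFn_toLp] with x h1 h2 h3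
  rw [h1, h2, h3]

theorem MW_ext {w v : Uni X} (h : ∀ x, w.f x = v.f x) : MW μ w = MW μ v := by
  have : w = v := by
    cases w; cases v
    congr
    exact funext h
  rw [this]

/-- the product -/
noncomputable def Uni.mul (w v : Uni X) : Uni X where
  f x := w.f x * v.f x
  meas := w.meas.mul v.meas
  norm x := by rw [norm_mul, w.norm, v.norm, one_mul]

/-- the complex conjugate -/
noncomputable def Uni.conj (w : Uni X) : Uni X where
  f x := (starRingEnd ℂ) (w.f x)
  meas := Complex.continuous_conj.measurable.comp w.meas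
  norm x := by rw [RCLike.norm_conj, w.norm]

/-- the constant one -/
noncomputable def Uni.one : Uni X where
  f _ := 1
  meas := measurable_const
  norm _ := norm_one

/-- composition -/
noncomputable def Uni.comp (w : Uni X) (T : X → X) (hT : Measurable T) : Uni X where
  f x := w.f (T x)
  meas := w.meas.comp hT
  norm x := w.norm _

theorem MW_MW (w v : Uni X) (g : Lp ℂ 2 μ) : MW μ w (MW μ v g) = MW μ (w.mul v) g := by
  ext1
  filter_upwards [MW_coe w (MW μ v g), MW_coe v g, MW_coe (w.mul v) g] with x h1 h2 h3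
  rw [h1, h2, h3, Uni.mul]
  ring

theorem MW_one (g : Lp ℂ 2 μ) : MW μ Uni.one g = g := by
  ext1
  filter_upwards [MW_coe Uni.one g] with x h1
  rw [h1, Uni.one, one_mul]

theorem MW_conj_left (w : Uni X) (g : Lp ℂ 2 μ) : MW μ w.conj (MW μ w g) = g := by
  rw [MW_MW, MW_ext (v := Uni.one), MW_one]
  intro x
  simp only [Uni.mul, Uni.conj, Uni.one]
  rw [mul_comm, Complex.mul_conj, Complex.normSq_eq_norm_sq, w.norm]
  norm_num

theorem MW_conj_right (w : Uni X) (g : Lp ℂ 2 μ) : MW μ w (MW μ w.conj g) = g := by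
  rw [MW_MW, MW_ext (v := Uni.one), MW_one]
  intro x
  simp only [Uni.mul, Uni.conj, Uni.one]
  rw [Complex.mul_conj, Complex.normSq_eq_norm_sq, w.norm]
  norm_num

theorem MW_comm (w v : Uni X) (g : Lp ℂ 2 μ) : MW μ w (MW μ v g) = MW μ v (MW μ w g) := by
  rw [MW_MW, MW_MW]
  rw [MW_ext]
  intro x
  simp only [Uni.mul]
  ring

/-- composition with `T` -/
noncomputable def CT (T : X → X) (hT : MeasurePreserving T μ μ) : Lp ℂ 2 μ →ₗᵢ[ℂ] Lp ℂ 2 μ :=
  Lp.compMeasurePreservingₗᵢ ℂ T hT

theorem CT_coe {T : X → X} (hT : MeasurePreserving T μ μ) (g : Lp ℂ 2 μ) :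
    CT T hT g =ᵐ[μ] fun x => g (T x) :=
  Lp.coeFn_compMeasurePreserving g hT

theorem CT_MW {T : X → X} (hT : MeasurePreserving T μ μ) (w : Uni X) (g : Lp ℂ 2 μ) :
    CT T hT (MW μ w g) = MW μ (w.comp T hT.measurable) (CT T hT g) := by
  ext1
  have h0 := hT.quasiMeasurePreserving.ae_eq_comp (MW_coe w g)
  filter_upwards [CT_coe hT (MW μ w g), CT_coe hT g, MW_coe (w.comp T hT.measurable) (CT T hT g),
    h0] with x h1 h2 h3 h4
  rw [h1, h3, h2]
  exact h4

end Lp

end Vale.Agent.P092.R2.H381
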