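import Vale.Agent.P092.R2.H381.Mul

/-!
Transport of multiplication and composition operators to `ℓ²(A)`.
-/

set_option linter.all false

open MeasureTheory ContinuousLinearMap
open scoped ENNReal ComplexConjugate

namespace Vale.Agent.P092.R2.H381

open Vale.Agent.P092.H160

/-- translation by `a` on `ℓ²(A)`: `δ_x ↦ δ_{a+x}` -/
noncomputable def tr {A : Type} [AddCommGroup A] (a : A) : Ell2 A →L[ℂ] Ell2 A :=
  rei (Equiv.addLeft a)

/-- the operator `δ_x ↦ δ_{g x}` on `ℓ²(A)` -/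
noncomputable def ac {A P : Type} [AddCommGroup A] [Group P] [DistribMulAction P A] (g : P) :
    Ell2 A →L[ℂ] Ell2 A :=
  rei (MulAction.toPerm g)

theorem tr_dl {A : Type} [AddCommGroup A] (a x : A) : tr a (dl x) = dl (a + x) := by
  rw [tr, rei_dl]; rfl

theorem ac_dl {A P : Type} [AddCommGroup A] [Group P] [DistribMulAction P A] (g : P) (x : A) :
    (ac g : Ell2 A →L[ℂ] Ell2 A) (dl x) = dl (g • x) := by
  rw [ac, rei_dl]; rfl

theorem ac_mul {A P : Type} [AddCommGroup A] [Group P] [DistribMulAction P A] (g k : P) :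
    (ac (g * k) : Ell2 A →L[ℂ] Ell2 A) = ac g * ac k := by
  apply op_ext
  intro x
  rw [ac_dl, mul_smul]
  change _ = ac g (ac k (dl x))
  rw [ac_dl, ac_dl]

theorem ac_one {A P : Type} [AddCommGroup A] [Group P] [DistribMulAction P A] :
    (ac (1 : P) : Ell2 A →L[ℂ] Ell2 A) = 1 := by
  apply op_ext
  intro x
  rw [ac_dl, one_smul]
  rfl

variable {X : Type} [MeasurableSpace X] {μ : Measure X}

/-- multiplication by `w` as a unitary operator -/
noncomputable def MWe (μ : Measure X) (w : Uni X) : Lp ℂ 2 μ ≃ₗᵢ[ℂ] Lp ℂ 2 μ :=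
  { MW μ w with
    invFun := MW μ w.conj
    left_inv := MW_conj_left w
    right_inv := MW_conj_right w }

theorem MWe_apply (w : Uni X) (g : Lp ℂ 2 μ) : MWe μ w g = MW μ w g := rfl

/-- A basis of characters. -/
structure ChB (A X : Type) [AddCommGroup A] [MeasurableSpace X] (μ : Measure X) where
  Φ : Lp ℂ 2 μ ≃ₗᵢ[ℂ] Ell2 A
  ch : A → Uni X
  o : Lp ℂ 2 μ
  map_ch : ∀ a, Φ (MW μ (ch a) o) = dl a
  add : ∀ a b x, (ch (a + b)).f x = (ch a).f x * (ch b).f x

namespace ChB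

variable {A : Type} [AddCommGroup A] (B : ChB A X μ)

theorem symm_dl (a : A) : B.Φ.symm (dl a) = MW μ (B.ch a) B.o := by
  rw [← B.map_ch, LinearIsometryEquiv.symm_apply_apply]

/-- the operator of `w` on `ℓ²(A)` -/
noncomputable def W (w : Uni X) : Ell2 A ≃ₗᵢ[ℂ] Ell2 A :=
  (B.Φ.symm.trans (MWe μ w)).trans B.Φ

theorem W_apply (w : Uni X) (ξ : Ell2 A) : B.W w ξ = B.Φ (MW μ w (B.Φ.symm ξ)) := rfl

theorem W_mul (w v : Uni X) (ξ : Ell2 A) : B.W w (B.W v ξ) = B.W (w.mul v) ξ := by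
  rw [W_apply, W_apply, W_apply, LinearIsometryEquiv.symm_apply_apply, MW_MW]

theorem W_ext {w v : Uni X} (h : ∀ x, w.f x = v.f x) : B.W w = B.W v := by
  ext1 ξ
  rw [W_apply, W_apply, MW_ext h]

theorem W_one (w : Uni X) (hw : ∀ x, w.f x = 1) (ξ : Ell2 A) : B.W w ξ = ξ := by
  rw [W_apply, MW_ext (v := Uni.one) (fun x => by rw [hw]; rfl), MW_one,
    LinearIsometryEquiv.apply_symm_apply]

/-- the operator of `w` as a bounded operator -/
noncomputable def V (w : Uni X) : Ell2 A →L[ℂ] Ell2 A := (B.W w).toContinuousLinearEquiv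

theorem V_apply (w : Uni X) (ξ : Ell2 A) : B.V w ξ = B.W w ξ := rfl

theorem V_ch (a : A) : B.V (B.ch a) = tr a := by
  apply op_ext
  intro x
  rw [V_apply, W_apply, symm_dl, MW_MW, tr_dl, ← B.map_ch]
  congr 1
  rw [MW_ext (v := B.ch (a + x))]
  intro y
  rw [B.add]
  rfl

theorem V_mul (w v : Uni X) : B.V w * B.V v = B.V (w.mul v) := by
  ext1 ξ
  exact B.W_mul w v ξ

theorem V_ext {w v : Uni X} (h : ∀ x, w.f x = v.f x) : B.V w = B.V v := by
  ext1 ξ
  rw [V_apply, V_apply, B.W_ext h]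

theorem V_one (w : Uni X) (hw : ∀ x, w.f x = 1) : B.V w = 1 := by
  ext1 ξ
  exact B.W_one w hw ξ

theorem V_comm (w v : Uni X) : B.V w * B.V v = B.V v * B.V w := by
  rw [V_mul, V_mul]
  apply V_ext
  intro x
  simp only [Uni.mul]
  ring

theorem V_comm_tr (w : Uni X) (a : A) : B.V w * tr a = tr a * B.V w := by
  rw [← V_ch B, V_comm]

theorem V_conj_mul (w : Uni X) : B.V w.conj * B.V w = 1 := by
  rw [V_mul, V_one]
  intro x
  simp only [Uni.mul, Uni.conj]
  rw [mul_comm, Complex.mul_conj, Complex.normSq_eq_norm_sq, w.norm]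
  norm_num

theorem V_mul_conj (w : Uni X) : B.V w * B.V w.conj = 1 := by
  rw [V_comm, V_conj_mul]

theorem adjoint_V (w : Uni X) : adjoint (B.V w) = B.V w.conj := by
  have h1 : adjoint (B.V w) * B.V w = 1 := by
    ext1 ξ
    refine ext_inner_left ℂ fun η => ?_
    change inner ℂ η (adjoint (B.V w) (B.V w ξ)) = inner ℂ η ξ
    rw [adjoint_inner_right, V_apply, V_apply, LinearIsometryEquiv.inner_map_map]
  calc adjoint (B.V w) = adjoint (B.V w) * (B.V w * B.V w.conj) := by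
        rw [V_mul_conj, mul_one]
    _ = B.V w.conj := by rw [← mul_assoc, h1, one_mul]

variable {P : Type} [Group P] [DistribMulAction P A]

theorem C_eq {T : X → X} (hT : MeasurePreserving T μ μ) (hTo : CT T hT B.o = B.o) {g : P}
    (hTc : ∀ a x, (B.ch a).f (T x) = (B.ch (g • a)).f x) (ξ : Ell2 A) :
    B.Φ (CT T hT (B.Φ.symm ξ)) = ac g ξ := by
  let L : Ell2 A →L[ℂ] Ell2 A :=
    (B.Φ.toContinuousLinearEquiv : Lp ℂ 2 μ →L[ℂ] Ell2 A).comp
      ((CT T hT).toContinuousLinearMap.comp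
        (B.Φ.symm.toContinuousLinearEquiv : Ell2 A →L[ℂ] Lp ℂ 2 μ))
  have h : L = ac g := by
    apply op_ext
    intro x
    change B.Φ (CT T hT (B.Φ.symm (dl x))) = _
    rw [symm_dl, CT_MW, hTo, ac_dl, ← B.map_ch]
    congr 1
    rw [MW_ext]
    intro y
    exact hTc x y
  exact congrArg (fun S : Ell2 A →L[ℂ] Ell2 A => S ξ) h

theorem ac_V {T : X → X} (hT : MeasurePreserving T μ μ) (hTo : CT T hT B.o = B.o) {g : P}
    (hTc : ∀ a x, (B.ch a).f (T x) = (B.ch (g • a)).f x) (w : Uni X) :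
    ac g * B.V w = B.V (w.comp T hT.measurable) * ac g := by
  ext1 ξ
  change ac g (B.V w ξ) = B.V (w.comp T hT.measurable) (ac g ξ)
  rw [V_apply, V_apply, W_apply, W_apply, ← B.C_eq hT hTo hTc, ← B.C_eq hT hTo hTc,
    LinearIsometryEquiv.symm_apply_apply, LinearIsometryEquiv.symm_apply_apply, CT_MW]

/-- The cocycle identity for the operators. -/
theorem key {T : X → X} (hT : MeasurePreserving T μ μ) (hTo : CT T hT B.o = B.o) {g : P}
    (hTc : ∀ a x, (B.ch a).f (T x) = (B.ch (g • a)).f x) (w w' w'' : Uni X) (b : A)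
    (h : ∀ x, w.f x * w'.f (T x) = (B.ch b).f x * w''.f x) :
    B.V w * ac g * B.V w' * ac g⁻¹ = tr b * B.V w'' := by
  have h1 : (ac g * ac g⁻¹ : Ell2 A →L[ℂ] Ell2 A) = 1 := by
    rw [← ac_mul, mul_inv_cancel, ac_one]
  rw [mul_assoc (B.V w), B.ac_V hT hTo hTc, ← mul_assoc, mul_assoc _ (ac g), h1, mul_one,
    V_mul, ← V_ch B, V_mul]
  exact B.V_ext h

end ChB

end Vale.Agent.P092.R2.H381
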